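import Vale.Agent.P195.G3

namespace Vale.Agent.Results.P195.Main

open CategoryTheory

theorem result : ∃ (A : Type) (_ : Ring A) (_ : Algebra ℚ A) (M : ModuleCat.{0} A),
    Module.Finite ℚ A ∧ Module.Finite A M ∧
    (∀ i : ℕ, 1 ≤ i → Subsingleton (Abelian.Ext.{0} M M i) ∧
      Subsingleton (Abelian.Ext.{0} M (ModuleCat.of A A) i)) ∧
    ¬ Module.Projective A M := by
  refine ⟨Vale.Agent.P195.Gam, inferInstance, inferInstance,
    ModuleCat.of _ (Vale.Agent.P195.Nt 1), inferInstance, inferInstance, fun i hi => ?_,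
    Vale.Agent.P195.not_proj⟩
  obtain ⟨j, rfl⟩ : ∃ j, i = j + 1 := ⟨i - 1, by omega⟩
  exact ⟨subsingleton_of_forall_eq 0
      (Vale.Agent.P195.vanish _ (fun _ hn => Vale.Agent.P195.extN hn) j 1 one_ne_zero),
    subsingleton_of_forall_eq 0
      (Vale.Agent.P195.vanish _ (fun _ hn => Vale.Agent.P195.extG hn) j 1 one_ne_zero)⟩

end Vale.Agent.Results.P195.Main
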